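import Vale.Agent.P097.H531.CD.Defs
import Vale.Agent.P097.H286.C.Defs

/-!
# P097 / case [c], row A5.GROWTH: the window argument of 402 in the strip (literal rows)

The rows of case [d] (`H531/CD/Defs.lean`) with `univ` replaced by the strip `Str b`.  Unchanged rows
(`CD.RowS`, `CD.RowF`, `CD.RowTC`) are used as they are.  Output (file `Main.lean`): the lines are
analytic on `|Im t| < b - C s ^ (-m)`, `|w| < exp (-s)`; growth of `F'` near the wall.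
-/

set_option linter.all false

open Complex Metric Filter Topology Set
open scoped ComplexConjugate

namespace Vale.Agent.P097.GR

open Vale.Agent.P097 Vale.Agent.P097.TA Vale.Agent.P097.H202 Vale.Agent.P097.SC
open Vale.Agent.P097.H456.Fct

/-- **Row P** (strip): vertex positions on tubes -/
def RowP : Prop := ∀ {κ Λ b : ℝ} {H Φ : ℂ → ℂ} {r e : ℝ} {α p : ℂ → ℂ → ℂ} {J F q Q : ℂ → ℂ},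
  CC.En κ Λ b H Φ r e α p J F q → CC.Bs Λ b F q Q → ∃ e₁ > 0, ∃ C₁ ≥ 1,
  ∀ {y ρ : ℝ} {A P : ℂ × ℂ → ℂ}, CD.Tu α p y ρ A P → ρ ≤ e₁ → 2 * ρ < y →
    ∃ θ, CD.Po F q y ρ A P θ ∧ CD.Lo1 ρ C₁ θ

/-- **Row L** (Landau), with `F` only as the value of `A` on the axis -/
def RowL : Prop := ∃ C ≥ 1, ∀ {F q : ℂ → ℂ} {y ρ C₁ s : ℝ} {A P θ : ℂ × ℂ → ℂ},
  AnalyticOnNhd ℂ A (CD.Tb y ρ) → (∀ t : ℂ, |t.im| < y → A (t, 0) = F t) →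
  CD.Po F q y ρ A P θ → CD.Lo1 ρ C₁ θ → 0 < ρ → ρ ≤ 1 → 4 * ρ < y → C ≤ s →
  Real.log (1 / ρ) ≤ s → y ≤ s → 1 ≤ C₁ → C₁ * ρ ≤ (s⁻¹) ^ 6 → ∀ x : ℂ,
  |x.im| < y - (s⁻¹) ^ 4 → ‖deriv F x‖ ≤ C * s ^ 4 / ρ

/-- **Row C** (climb), the ball of the place is inside the strip -/
def RowC : Prop := ∃ ε₁ > 0, ∀ {Λ b : ℝ} {F q Q : ℂ → ℂ}, CC.Bs Λ b F q Q →
  ∀ {c : ℂ} {D r v K : ℝ}, 0 < D → 0 < r → 1 ≤ v → 400 * (v + 60) ≤ K → K * r ≤ ε₁ * D →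
  ball c (K * D) ⊆ Str b →
  (∀ z ∈ ball c (K * D), ‖deriv F z‖ * r * K ≤ ε₁ ∧ ‖Q z‖ * r * K * D ≤ ε₁) →
  ∀ {A P θ : ℂ × ℂ → ℂ}, AnalyticOnNhd ℂ A (CD.LoR c D r v K) →
  AnalyticOnNhd ℂ P (CD.LoR c D r v K) → AnalyticOnNhd ℂ θ (CD.LoR c D r v K) →
  (∀ t w : ℂ, (t, w) ∈ CD.LoR c D r v K → ‖θ (t, w) - t‖ ≤ D) →
  (∀ t : ℂ, (t, (0 : ℂ)) ∈ CD.LoR c D r v K → A (t, 0) = F t) →
  (∀ t w : ℂ, (t, w) ∈ CD.LoR c D r v K → A (t, -w) = A (t, w) ∧ P (t, -w) = P (t, w) ∧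
    θ (t, -w) = θ (t, w)) →
  (∀ t w : ℂ, (t + w / 2, w) ∈ CD.LoR c D r v K → (t - w / 2, w) ∈ CD.LoR c D r v K →
    ‖θ (t + w / 2, w) - θ (t - w / 2, w) - w‖ ≤ ε₁ * ‖w‖ ∧
    A (t + w / 2, w) + A (t - w / 2, w) = 2 * F (θ (t, w)) ∧
    P (t + w / 2, w) + P (t - w / 2, w) =
      2 * q (θ (t, w)) * cos ((A (t + w / 2, w) - A (t - w / 2, w)) / 2) ∧
    deriv F (θ (t, w)) * (P (t + w / 2, w) - P (t - w / 2, w)) =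
      2 * deriv q (θ (t, w)) * sin ((A (t + w / 2, w) - A (t - w / 2, w)) / 2)) →
  ∃ A' P' : ℂ × ℂ → ℂ, AnalyticOnNhd ℂ A' (CD.UpR c D r v) ∧
    AnalyticOnNhd ℂ P' (CD.UpR c D r v) ∧
    ∀ u ∈ CD.LoR c D r v K ∩ CD.UpR c D r v, A' u = A u ∧ P' u = P u

/-- **Row Sp** (spread) in the strip; the new heights are below `b` -/
def RowSp : Prop := ∀ {κ Λ b : ℝ} {H Φ : ℂ → ℂ} {r e : ℝ} {α p : ℂ → ℂ → ℂ} {J F q Q : ℂ → ℂ},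
  CC.En κ Λ b H Φ r e α p J F q → CC.Bs Λ b F q Q → ∃ e₁ > 0, ∀ {b₀ ρ : ℝ} {A P : ℂ × ℂ → ℂ},
  CD.Tu α p b₀ ρ A P → ∀ {x' D a b₁ u ε : ℝ} {A₁ P₁ : ℂ × ℂ → ℂ}, 0 < u → 12 * u < D → u < ρ →
  u ≤ e₁ → 0 < ε → a < b₀ → b₀ < b₁ → b₁ ≤ b →
  AnalyticOnNhd ℂ A₁ ({t : ℂ | |t.re - x'| < D ∧ a < t.im ∧ t.im < b₁} ×ˢ ball (u : ℂ) ε) →
  AnalyticOnNhd ℂ P₁ ({t : ℂ | |t.re - x'| < D ∧ a < t.im ∧ t.im < b₁} ×ˢ ball (u : ℂ) ε) →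
  (∀ t w : ℂ, |t.re - x'| < D → a < t.im → t.im < b₀ → w ∈ ball (u : ℂ) ε → ‖w‖ < ρ →
    A₁ (t, w) = A (t, w) ∧ P₁ (t, w) = P (t, w)) → ∀ c < b₁, ∃ ε' > 0, ∃ A₂ P₂ : ℂ × ℂ → ℂ,
    AnalyticOnNhd ℂ A₂ ({t : ℂ | -b₀ < t.im ∧ t.im < c} ×ˢ ball (u : ℂ) ε') ∧
    AnalyticOnNhd ℂ P₂ ({t : ℂ | -b₀ < t.im ∧ t.im < c} ×ˢ ball (u : ℂ) ε') ∧
    ∀ t w : ℂ, |t.im| < b₀ → w ∈ ball (u : ℂ) ε' → ‖w‖ < ρ →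
      A₂ (t, w) = A (t, w) ∧ P₂ (t, w) = P (t, w)

end Vale.Agent.P097.GR
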