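import Vale.Agent.P097.H275.G.Defs
import Vale.Agent.P097.H531.CD.Height
import Vale.Agent.P097.H128.Sector.Top3
import Vale.Agent.P097.H710.RowY1

/-! # P097 / case [c], growth rows: basic facts on tubes in the strip, heights `y < b` -/

set_option linter.all false

open Complex Metric Filter Topology Set
open scoped ComplexConjugate

namespace Vale.Agent.P097.GR

open Vale.Agent.P097 Vale.Agent.P097.TA Vale.Agent.P097.H202 Vale.Agent.P097.SC
open Vale.Agent.P097.H456.Fct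
open Vale.Agent.P097.CD (Tb Tu Ext HY HS Tb_mono zero_mem_Tb HS_mono)

section
variable {α p : ℂ → ℂ → ℂ} {y ρ : ℝ} {A P : ℂ × ℂ → ℂ}
variable {κ Λ b : ℝ} {H Φ : ℂ → ℂ} {r e : ℝ} {J F q : ℂ → ℂ}

theorem slice {f : ℂ × ℂ → ℂ} (hρ : 0 < ρ) (hf : AnalyticOnNhd ℂ f (Tb y ρ)) :
    AnalyticOnNhd ℂ (fun t : ℂ => f (t, 0)) (Str y) := by
  intro t ht
  have h1 : AnalyticAt ℂ f (t, 0) := hf _ ⟨ht, by simpa using hρ⟩
  exact AnalyticAt.comp (g := f) (f := fun t : ℂ => (t, (0 : ℂ))) h1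
    (analyticAt_id.prod analyticAt_const)

theorem isOpen_Str' (b : ℝ) : IsOpen (Str b) := by
  have h1 : IsOpen {z : ℂ | |z.im| < b} := isOpen_lt (by fun_prop) continuous_const
  exact h1

/-- the axis `w = 0`, below both heights -/
theorem ax_min (h : Tu α p y ρ A P) (E : CC.En κ Λ b H Φ r e α p J F q) :
    ∀ t : ℂ, |t.im| < y → |t.im| < b → A (t, 0) = F t ∧ P (t, 0) = q t := by
  have L := E.ctx.ln
  have hb0 := E.b0
  have hm0 : 0 < min y b := lt_min h.y0 hb0
  have hconn := (convex_Str (min y b)).isPreconnected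
  have h0m : ((0 : ℝ) : ℂ) ∈ Str (min y b) := by
    show |(((0 : ℝ) : ℂ)).im| < min y b
    simpa using hm0
  have sy : Str (min y b) ⊆ Str y := fun z hz =>
    show |z.im| < y from lt_of_lt_of_le (show |z.im| < min y b from hz) (min_le_left _ _)
  have sb : Str (min y b) ⊆ Str b := fun z hz =>
    show |z.im| < b from lt_of_lt_of_le (show |z.im| < min y b from hz) (min_le_right _ _)
  have hx : ∀ x : ℝ, A ((x : ℂ), 0) = F x ∧ P ((x : ℂ), 0) = q x := by
    intro x
    have h1 := (h.eq x).self_of_nhds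
    have hr := L.hr
    have h2 : |(x : ℂ).im| < r := by simpa using hr
    rw [h1.1, h1.2]
    simp only
    rw [L.αzero _ h2, L.pzero _ h2, (E.re x).1, (E.re x).2]
    exact ⟨rfl, rfl⟩
  have hseq : Tendsto (fun n : ℕ => (((1 : ℝ) / (n + 1) : ℝ) : ℂ)) atTop (𝓝[≠] ((0 : ℝ) : ℂ)) := by
    refine tendsto_nhdsWithin_iff.2 ⟨?_, Eventually.of_forall fun n => ?_⟩
    · exact (continuous_ofReal.tendsto 0).comp tendsto_one_div_add_atTop_nhds_zero_nat
    · show (((1 : ℝ) / (n + 1) : ℝ) : ℂ) ≠ ((0 : ℝ) : ℂ)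
      intro hh
      have h2 := ofReal_injective hh
      have h3 : (0 : ℝ) < 1 / ((n : ℝ) + 1) := by positivity
      linarith
  have k1 : EqOn (fun t : ℂ => A (t, 0)) F (Str (min y b)) :=
    ((slice h.ρ0 h.aA).mono sy).eqOn_of_preconnected_of_frequently_eq
      ((E.dF.analyticOnNhd (isOpen_Str' b)).mono sb) hconn h0m
      (hseq.frequently (Eventually.of_forall fun n => (hx _).1).frequently)
  have k2 : EqOn (fun t : ℂ => P (t, 0)) q (Str (min y b)) :=
    ((slice h.ρ0 h.aP).mono sy).eqOn_of_preconnected_of_frequently_eq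
      ((E.dq.analyticOnNhd (isOpen_Str' b)).mono sb) hconn h0m
      (hseq.frequently (Eventually.of_forall fun n => (hx _).2).frequently)
  exact fun t ht hb => ⟨k1 (lt_min ht hb), k2 (lt_min ht hb)⟩

/-- tubes do not cross the natural boundary -/
theorem le_b (h : Tu α p y ρ A P) (E : CC.En κ Λ b H Φ r e α p J F q) : y ≤ b := by
  by_contra hb
  push Not at hb
  have hb0 := E.b0
  refine E.nat ⟨0, min (y - b) b, fun t => exp (I * A (t, 0)), fun t => P (t, 0),
    lt_min (by linarith) hb0, ?_, ?_, ?_⟩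
  · intro z hz
    have hz' : z ∈ Str y := by
      have h1 := mem_ball_iff_norm.1 hz
      have h2 := (abs_im_le_norm (z - (((0 : ℝ) : ℂ) + b * I))).trans_lt
        (h1.trans_le (min_le_left _ _))
      have h3 : (z - (((0 : ℝ) : ℂ) + b * I)).im = z.im - b := by simp
      rw [h3] at h2
      have h4 := abs_lt.1 h2
      show |z.im| < y
      exact abs_lt.2 ⟨by linarith, by linarith⟩
    have ha := (slice h.ρ0 h.aA) z hz'
    exact ((analyticAt_const.mul ha).cexp).meromorphicAt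
  · intro z hz
    have hz' : z ∈ Str y := by
      have h1 := mem_ball_iff_norm.1 hz
      have h2 := (abs_im_le_norm (z - (((0 : ℝ) : ℂ) + b * I))).trans_lt
        (h1.trans_le (min_le_left _ _))
      have h3 : (z - (((0 : ℝ) : ℂ) + b * I)).im = z.im - b := by simp
      rw [h3] at h2
      have h4 := abs_lt.1 h2
      show |z.im| < y
      exact abs_lt.2 ⟨by linarith, by linarith⟩
    exact ((slice h.ρ0 h.aP) z hz').meromorphicAt
  · intro z hz hzb
    have h1 := mem_ball_iff_norm.1 hz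
    have h2 := (abs_im_le_norm (z - (((0 : ℝ) : ℂ) + b * I))).trans_lt
      (h1.trans_le (min_le_right _ _))
    have h3 : (z - (((0 : ℝ) : ℂ) + b * I)).im = z.im - b := by simp
    rw [h3] at h2
    have h4 := abs_lt.1 h2
    have h5 : |z.im| < b := abs_lt.2 ⟨by linarith, hzb⟩
    have h6 := ax_min h E z (h5.trans hb) h5
    show cexp (I * A (z, 0)) = _ ∧ P (z, 0) = _
    rw [h6.1, h6.2]
    exact ⟨rfl, rfl⟩

theorem ax (h : Tu α p y ρ A P) (E : CC.En κ Λ b H Φ r e α p J F q) :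
    ∀ t : ℂ, |t.im| < y → A (t, 0) = F t ∧ P (t, 0) = q t :=
  fun t ht => ax_min h E t ht (ht.trans_le (le_b h E))

theorem Ext_le_b (h : Ext α p y ρ) (E : CC.En κ Λ b H Φ r e α p J F q) : y ≤ b := by
  obtain ⟨A, P, h⟩ := h
  exact le_b h E

/-- every height below `b` is reached for small labels -/
theorem rowY0 (E : CC.En κ Λ b H Φ r e α p J F q) {y : ℝ} (hy : 0 < y) (hyb : y < b) :
    ∃ ρ > 0, Ext α p y ρ := by
  set b' := (y + b) / 2 with hb'
  set ρ := min (1 / 4) (b - b') with hρ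
  have hρ0 : 0 < ρ := lt_min (by norm_num) (by rw [hb']; linarith)
  have hρ1 : ρ ≤ 1 / 4 := min_le_left _ _
  have hρ2 : ρ ≤ b - b' := min_le_right _ _
  have hsub : Str b' ∪ ball (((0 : ℝ) : ℂ) + b' * I) ρ ⊆ Str b := by
    rintro z (hz | hz)
    · exact show |z.im| < b from lt_of_lt_of_le (show |z.im| < b' from hz) (by rw [hb']; linarith)
    · have h2 := (abs_im_le_norm (z - (((0 : ℝ) : ℂ) + b' * I))).trans_lt (mem_ball_iff_norm.1 hz)
      have h3 : (z - (((0 : ℝ) : ℂ) + b' * I)).im = z.im - b' := by simp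
      rw [h3] at h2
      have h4 := abs_lt.1 h2
      show |z.im| < b
      have hb2 : 0 < b' := by rw [hb']; linarith
      exact abs_lt.2 ⟨by linarith, by linarith⟩
  obtain ⟨αh, ph, h1, h2, h3⟩ := secE E.ctx (a := 0) (b := b') (ρ := ρ) (Φb := F) (qb := q)
    (by rw [hb']; linarith) hρ0 hρ1 (E.dF.mono hsub) (E.dq.mono hsub) E.re
  obtain ⟨r₁, hr₁, a1, a2⟩ := h1 (b' - y) (by rw [hb']; linarith) (by linarith)
  have hsub : Tb y r₁ ⊆ Om 0 b' (ρ / 2) (b' - y) ×ˢ ball (0 : ℂ) r₁ := by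
    intro u hu
    refine ⟨Or.inl ?_, by simpa using hu.2⟩
    show |u.1.im| < b' - (b' - y)
    have := hu.1
    linarith
  refine ⟨r₁, hr₁, αh, ph, hy, hr₁, a1.mono hsub, a2.mono hsub, fun t => ?_⟩
  filter_upwards [(h2 t).1, (h2 t).2] with u a b
  exact ⟨a, b⟩

/-- logarithmic convexity -/
theorem rowY1 (E : CC.En κ Λ b H Φ r e α p J F q) {y₁ ρ₁ y₂ ρ₂ m y ρ : ℝ}
    (h1 : Ext α p y₁ ρ₁) (h2 : Ext α p y₂ ρ₂) (hm0 : 0 ≤ m) (hm1 : m ≤ 1) (hy : 0 < y)
    (hym : y < (1 - m) * y₁ + m * y₂) (hρ : 0 < ρ)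
    (hρm : Real.log ρ < (1 - m) * Real.log ρ₁ + m * Real.log ρ₂) : Ext α p y ρ := by
  rcases le_total y₁ y₂ with h | h
  · exact H710.rowY1_aux E.ctx.ln h1 h2 hm0 hm1 hy hym hρ hρm h
  · refine H710.rowY1_aux E.ctx.ln h2 h1 (m := 1 - m) (by linarith) (by linarith) hy ?_ hρ ?_ h
    · linarith
    · linarith

end

end Vale.Agent.P097.GR
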