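import Vale.Agent.P097.H275.G.Main
import Vale.Agent.P097.TC.Defs5

/-! # P097 / case [c]: the growth theorem in the form `A5.Gro`, the structure `A5.Crv` -/

set_option linter.all false

open Complex Metric Filter Topology Set
open scoped ComplexConjugate

namespace Vale.Agent.P097.GR

open Vale.Agent.P097 Vale.Agent.P097.TA Vale.Agent.P097.H202 Vale.Agent.P097.SC

section
variable {κ Λ b : ℝ} {H Φ : ℂ → ℂ} {r e : ℝ} {α p : ℂ → ℂ → ℂ} {J F q Q : ℂ → ℂ}

theorem gro (E : CC.En κ Λ b H Φ r e α p J F q) : A5.Gro b F q := by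
  intro a ha
  obtain ⟨Q, B⟩ := CC.rowB E
  obtain ⟨C, hC, h⟩ := growth_a E B ha
  refine ⟨C, hC, fun x hx => ?_⟩
  obtain ⟨h1, h2, h3, h4, h5, h6, h7⟩ := h x hx
  exact ⟨h1, h2, h5, h6⟩

/-- the curve of `A5` -/
theorem crv (E : CC.En κ Λ b H Φ r e α p J F q) (B : CC.Bs Λ b F q Q) : A5.Crv Λ b F q where
  cv := ⟨B.Λ0, B.b0, B.dF, B.dq, fun x hx => by
    have h := B.wr x hx
    unfold Wr at h
    rw [← h]⟩
  Fp := B.Fp
  qp := B.qp
  gro := gro E

end

end Vale.Agent.P097.GR
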