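import Vale.Agent.P097.H275.G.Base
import Vale.Agent.P097.H275.G.D2

/-! # P097 / case [c], growth rows: from the heights to the growth of `F'` and `Q` -/

set_option linter.all false

open Complex Metric Filter Topology Set
open scoped ComplexConjugate

namespace Vale.Agent.P097.GR

open Vale.Agent.P097 Vale.Agent.P097.TA Vale.Agent.P097.H202 Vale.Agent.P097.SC
open Vale.Agent.P097.H456.Fct
open Vale.Agent.P097.CD (Tb Tu Ext HY HS Tb_mono zero_mem_Tb HS_mono)

/-- **(G0)** : the lines are analytic on `|Im t| < b - s ^ (-n)`, `|w| < exp (-s)`, for large `s` -/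
def G0 (α p : ℂ → ℂ → ℂ) (b : ℝ) : Prop := ∀ n : ℕ, ∀ᶠ s : ℝ in atTop, ∀ y, 0 < y →
  y < b - 1 / s ^ n → Ext α p y (Real.exp (-s))

section
variable {κ Λ b : ℝ} {H Φ : ℂ → ℂ} {r e : ℝ} {α p : ℂ → ℂ → ℂ} {J F q Q : ℂ → ℂ}

theorem growth_core (E : CC.En κ Λ b H Φ r e α p J F q) (B : CC.Bs Λ b F q Q) (hP : RowP)
    (hL : RowL) (hG : G0 α p b) {n : ℕ} (hn : 1 ≤ n) :
    ∀ᶠ s : ℝ in atTop, ∀ x : ℂ, |x.im| < b - 2 / s ^ n → ‖deriv F x‖ ≤ Real.exp (2 * s) := by
  obtain ⟨e₁, he₁, C₁, hC₁, hP'⟩ := hP E B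
  obtain ⟨CL, hCL, hL'⟩ := hL
  have hb0 := E.b0
  have t1 : Tendsto (fun s : ℝ => s ^ n) atTop atTop := tendsto_pow_atTop (by omega)
  have t2 : ∀ (M : ℝ) (k : ℕ), ∀ᶠ s : ℝ in atTop, M * s ^ k ≤ Real.exp s := by
    intro M k
    have h1 : Tendsto (fun s : ℝ => Real.exp s / s ^ k) atTop atTop :=
      Real.tendsto_exp_div_pow_atTop k
    filter_upwards [h1.eventually_ge_atTop M, eventually_gt_atTop (0 : ℝ)] with s h2 h3
    rwa [le_div_iff₀ (by positivity)] at h2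
  filter_upwards [hG n, eventually_ge_atTop (2 : ℝ), t1.eventually_ge_atTop (4 * (b + 1) / b),
    t1.eventually_ge_atTop CL, t1.eventually_ge_atTop b, t2 1 1, t2 (1 / e₁) 0, t2 (16 / b) 0,
    t2 (C₁) (6 * n), t2 CL (4 * n)] with s g0 g2 g3 g4 g5 g6 g7 g8 g9 g10 x hx
  set σ := s ^ n with hσ
  have hs0 : 0 < s := by linarith
  have hσs : s ≤ σ := by
    calc s = s ^ 1 := (pow_one s).symm
      _ ≤ s ^ n := pow_le_pow_right₀ (by linarith) hn
  have hσ2 : 2 ≤ σ := g2.trans hσs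
  have hσ0 : 0 < σ := by linarith
  have hr0 : 0 < Real.exp (-s) := Real.exp_pos _
  have hrs : Real.exp (-s) * Real.exp s = 1 := by rw [← Real.exp_add]; simp
  have hσb : 2 / σ ≤ b / 2 := by
    have h1 : 4 ≤ σ * b := by
      rw [div_le_iff₀ hb0] at g3
      linarith
    rw [div_le_iff₀ hσ0]
    linarith
  set y := b - 3 / 2 / σ with hy
  have h34 : 3 / 2 / σ ≤ 2 / σ := div_le_div_of_nonneg_right (by norm_num) hσ0.le
  have h14 : 1 / σ < 3 / 2 / σ := div_lt_div_of_pos_right (by norm_num) hσ0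
  have hyb : b / 2 ≤ y := by rw [hy]; linarith
  obtain ⟨A, P, T⟩ := g0 y (by linarith) (by rw [hy]; linarith)
  have k7 : Real.exp (-s) ≤ e₁ := by
    rw [pow_zero, mul_one] at g7
    have h1 := mul_le_mul_of_nonneg_left g7 hr0.le
    rw [hrs] at h1
    have h2 : Real.exp (-s) = Real.exp (-s) * (1 / e₁) * e₁ := by field_simp
    rw [h2]
    calc _ ≤ 1 * e₁ := mul_le_mul_of_nonneg_right h1 he₁.le
      _ = e₁ := one_mul _
  have k8 : 4 * Real.exp (-s) < y := by
    rw [pow_zero, mul_one] at g8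
    have h1 := mul_le_mul_of_nonneg_left g8 hr0.le
    rw [hrs] at h1
    have h2 : 16 * Real.exp (-s) ≤ b := by
      have h3 : Real.exp (-s) * (16 / b) * b = 16 * Real.exp (-s) := by field_simp
      rw [← h3]
      calc _ ≤ 1 * b := mul_le_mul_of_nonneg_right h1 hb0.le
        _ = b := one_mul _
    linarith
  have k1 : Real.exp (-s) ≤ 1 := Real.exp_le_one_iff.2 (by linarith)
  obtain ⟨θ, Pθ, Lθ⟩ := hP' T k7 (by linarith)
  have hlog : Real.log (1 / Real.exp (-s)) = s := by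
    rw [one_div, ← Real.exp_neg, neg_neg, Real.log_exp]
  have k9 : C₁ * Real.exp (-s) ≤ (σ⁻¹) ^ 6 := by
    have e1 : s ^ (6 * n) = σ ^ 6 := by rw [hσ, ← pow_mul]; congr 1; ring
    rw [e1] at g9
    have h1 := mul_le_mul_of_nonneg_left g9 hr0.le
    rw [hrs] at h1
    rw [inv_pow, ← one_div, le_div_iff₀ (by positivity)]
    calc C₁ * Real.exp (-s) * σ ^ 6 = Real.exp (-s) * (C₁ * σ ^ 6) := by ring
      _ ≤ 1 := h1
  have k10 : (σ⁻¹) ^ 4 ≤ 1 / 2 / σ := by
    rw [inv_pow, ← one_div, div_div]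
    apply div_le_div_of_nonneg_left (by norm_num) (by positivity)
    have h1 : (2 : ℝ) ^ 3 ≤ σ ^ 3 := pow_le_pow_left₀ (by norm_num) hσ2 3
    have h2 : σ ^ 4 = σ ^ 3 * σ := by ring
    rw [h2]
    exact mul_le_mul_of_nonneg_right (by linarith) hσ0.le
  have h := hL' T.aA (fun t ht => (ax T E t ht).1) Pθ Lθ hr0 k1 k8 g4
    (by rw [hlog]; exact hσs) (by linarith [show y ≤ b from le_b T E]) hC₁ k9 x (by
      have e2 : 3 / 2 / σ + 1 / 2 / σ = 2 / σ := by ring
      rw [hy]; linarith)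
  refine h.trans ?_
  have e1 : s ^ (4 * n) = σ ^ 4 := by rw [hσ, ← pow_mul]; congr 1; ring
  rw [e1] at g10
  rw [div_le_iff₀ hr0]
  have e3 : Real.exp (2 * s) * Real.exp (-s) = Real.exp s := by
    rw [← Real.exp_add]; congr 1; ring
  rw [e3]
  exact g10

/-- **(G1)** : growth of `F'` near the natural boundary -/
theorem growth_of (E : CC.En κ Λ b H Φ r e α p J F q) (B : CC.Bs Λ b F q Q) (hP : RowP)
    (hL : RowL) (hG : G0 α p b) (m : ℕ) :
    ∃ C > 0, ∀ x ∈ Str b, ‖deriv F x‖ ≤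
      Real.exp (C * (b - |x.im|) ^ (-(1 / ((m : ℝ) + 1)) : ℝ)) := by
  have hb0 := E.b0
  obtain ⟨S, hS⟩ := eventually_atTop.1 (growth_core E B hP hL hG (n := m + 1) (by omega))
  set a : ℝ := 1 / ((m : ℝ) + 1) with ha
  have ha0 : 0 < a := by positivity
  set S' := max S 1 with hS'
  have hS1 : 1 ≤ S' := le_max_right _ _
  set C : ℝ := 2 * S' * b ^ a + 2 * 3 ^ a with hC
  have hC0 : 0 < C := by positivity
  refine ⟨C, hC0, fun x hx => ?_⟩
  have hx' : |x.im| < b := hx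
  set d := b - |x.im| with hd
  have hd0 : 0 < d := by linarith
  have hdb : d ≤ b := by have := abs_nonneg x.im; linarith
  set s := S' + (3 / d) ^ a with hs
  have h3d : 0 < (3 / d) ^ a := Real.rpow_pos_of_pos (by positivity) _
  have hsS : S ≤ s := (le_max_left S 1).trans (by rw [hs]; linarith)
  have hs0 : 0 < s := by rw [hs]; linarith
  have hpow : 3 / d ≤ s ^ (m + 1) := by
    have h1 : ((3 / d) ^ a) ^ (m + 1) = 3 / d := by
      rw [← Real.rpow_natCast, ← Real.rpow_mul (by positivity)]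
      have : a * ((m + 1 : ℕ) : ℝ) = 1 := by
        rw [ha]; push_cast; field_simp
      rw [this, Real.rpow_one]
    calc 3 / d = ((3 / d) ^ a) ^ (m + 1) := h1.symm
      _ ≤ s ^ (m + 1) := pow_le_pow_left₀ h3d.le (by rw [hs]; linarith) _
  have hkey := hS s hsS x (by
    have h1 : 2 / s ^ (m + 1) ≤ 2 / (3 / d) :=
      div_le_div_of_nonneg_left (by norm_num) (by positivity) hpow
    have h2 : 2 / (3 / d) = 2 / 3 * d := by field_simp
    rw [h2] at h1
    have h3 : |x.im| = b - d := by rw [hd]; ring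
    linarith)
  refine hkey.trans (Real.exp_le_exp.2 ?_)
  have e1 : (3 / d) ^ a = 3 ^ a * d ^ (-a) := by
    rw [Real.div_rpow (by norm_num) hd0.le, Real.rpow_neg hd0.le, div_eq_mul_inv]
  have e2 : 1 ≤ b ^ a * d ^ (-a) := by
    rw [Real.rpow_neg hd0.le, ← div_eq_mul_inv, one_le_div (Real.rpow_pos_of_pos hd0 _)]
    exact Real.rpow_le_rpow hd0.le hdb ha0.le
  have e3 : 2 * S' * 1 ≤ 2 * S' * (b ^ a * d ^ (-a)) :=
    mul_le_mul_of_nonneg_left e2 (by linarith)
  rw [hs, e1, hC]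
  linarith

end

end Vale.Agent.P097.GR
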