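import Vale.Agent.P097.H275.G.Growth
import Vale.Agent.P097.H557.DE.Place
import Vale.Agent.P097.H348.G.Out

/-! # P097 / case [c], growth rows: growth of `Q`, all outputs -/

set_option linter.all false

open Complex Metric Filter Topology Set
open scoped ComplexConjugate

namespace Vale.Agent.P097.GR

open Vale.Agent.P097 Vale.Agent.P097.TA Vale.Agent.P097.H202 Vale.Agent.P097.SC
open Vale.Agent.P097.H456.Fct

section
variable {κ Λ b : ℝ} {H Φ : ℂ → ℂ} {r e : ℝ} {α p : ℂ → ℂ → ℂ} {J F q Q : ℂ → ℂ}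

/-- **(G2)** : growth of `Q` from growth of `F'` -/
theorem Q_growth (B : CC.Bs Λ b F q Q) {a C : ℝ} (ha : 0 < a)
    (h1 : ∀ x ∈ Str b, ‖deriv F x‖ ≤ Real.exp (C * (b - |x.im|) ^ (-a))) :
    ∃ C' > 0, ∀ x ∈ Str b, ‖Q x‖ ≤ Real.exp (C' * (b - |x.im|) ^ (-a)) := by
  have b0 := B.b0
  obtain ⟨l, hl, hlow⟩ := H557.DE.lowS B
  set c : ℝ := min (1 / 2) (1 / b) with hc
  have hc0 : 0 < c := lt_min (by norm_num) (by positivity)
  obtain ⟨C₂, hC₂, h2⟩ := H348.G.of_npow (b := b) (a := a) b0 ha 6 ((1 / c) ^ 6)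
  have hu0 : 0 < b ^ (-a) := Real.rpow_pos_of_pos b0 _
  obtain ⟨C', hC', -, h3⟩ := H348.G.absorb hu0 (3 * 10 ^ 10 * Real.exp (4 * l))
    (4 * (|C| * 2 ^ a) + C₂)
  refine ⟨C', hC', fun x hx => ?_⟩
  have hx' : |x.im| < b := hx
  set d := b - |x.im| with hd
  have hd0 : 0 < d := by linarith
  have hdb : d ≤ b := by have := abs_nonneg x.im; linarith
  set u := d ^ (-a) with hu
  set A := |C| * 2 ^ a * u with hA
  have hu1 : 0 < u := Real.rpow_pos_of_pos hd0 _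
  have hA0 : 0 ≤ A := by positivity
  set R := min (d / 2) 1 with hR
  have hR0 : 0 < R := lt_min (by linarith) one_pos
  have hRc : d * c ≤ R := by
    refine le_min ?_ ?_
    · have := min_le_left (1 / 2 : ℝ) (1 / b)
      calc d * c ≤ d * (1 / 2) := mul_le_mul_of_nonneg_left this hd0.le
        _ = d / 2 := by ring
    · have := min_le_right (1 / 2 : ℝ) (1 / b)
      calc d * c ≤ d * (1 / b) := mul_le_mul_of_nonneg_left this hd0.le
        _ = d / b := by ring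
        _ ≤ 1 := by rw [div_le_one b0]; exact hdb
  have key := D2.Q_bound (g := deriv F) (Q := Q) (b := b) b0 (H557.DE.dgS B) B.dQ B.gQ
    (H557.DE.gpS B) hlow hl (A := A) (Y := b - d / 2) (R := R) hA0 hR0 (min_le_right _ _)
    (by linarith) (by
      intro z hz
      have hzb : z ∈ Str b := show |z.im| < b by linarith
      refine (h1 z hzb).trans (Real.exp_le_exp.2 ?_)
      have h4 : d / 2 ≤ b - |z.im| := by linarith
      have h5 : (b - |z.im|) ^ (-a) ≤ (d / 2) ^ (-a) :=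
        Real.rpow_le_rpow_of_nonpos (by linarith) h4 (by linarith)
      have h6 : (d / 2) ^ (-a) = 2 ^ a * u := by
        rw [Real.div_rpow hd0.le (by norm_num), Real.rpow_neg (by norm_num : (0 : ℝ) ≤ 2), hu]
        field_simp
      have h7 : 0 ≤ (b - |z.im|) ^ (-a) := Real.rpow_nonneg (by linarith) _
      calc C * (b - |z.im|) ^ (-a) ≤ |C| * (b - |z.im|) ^ (-a) :=
            mul_le_mul_of_nonneg_right (le_abs_self C) h7
        _ ≤ |C| * (d / 2) ^ (-a) := mul_le_mul_of_nonneg_left h5 (abs_nonneg C)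
        _ = A := by rw [h6, hA]; ring)
    (z := x) (by
      have h4 : R ≤ d / 2 := min_le_left _ _
      have h5 : |x.im| = b - d := by rw [hd]; ring
      linarith)
  refine key.trans (le_trans ?_ (h3 u (H348.G.sz_low ha hx)))
  have h4 : A + l + 1 ≤ Real.exp (A + l) := Real.add_one_le_exp _
  have h5 : (A + l + 1) ^ 4 ≤ Real.exp (4 * (A + l)) := by
    have h6 := pow_le_pow_left₀ (by positivity) h4 4
    rwa [← Real.exp_nat_mul, show ((4 : ℕ) : ℝ) = 4 by norm_num] at h6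
  have h7 : 1 / R ^ 6 ≤ Real.exp (C₂ * u) := by
    refine le_trans ?_ (h2 x hx)
    have h8 : (d * c) ^ 6 ≤ R ^ 6 := pow_le_pow_left₀ (by positivity) hRc 6
    have h9 : 1 / R ^ 6 ≤ 1 / (d * c) ^ 6 :=
      div_le_div_of_nonneg_left (by norm_num) (by positivity) h8
    refine h9.trans (le_of_eq ?_)
    show 1 / (d * c) ^ 6 = (1 / c) ^ 6 / d ^ 6
    rw [mul_pow, div_pow, one_pow, div_div, mul_comm (c ^ 6)]
  calc 3 * 10 ^ 10 * (A + l + 1) ^ 4 / R ^ 6 = 3 * 10 ^ 10 * (A + l + 1) ^ 4 * (1 / R ^ 6) := by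
        ring
    _ ≤ 3 * 10 ^ 10 * Real.exp (4 * (A + l)) * Real.exp (C₂ * u) := by
        apply mul_le_mul _ h7 (by positivity) (by positivity)
        exact mul_le_mul_of_nonneg_left h5 (by norm_num)
    _ = 3 * 10 ^ 10 * Real.exp (4 * l) * Real.exp ((4 * (|C| * 2 ^ a) + C₂) * u) := by
        rw [mul_assoc, mul_assoc (3 * 10 ^ 10 : ℝ), ← Real.exp_add, ← Real.exp_add]
        congr 2
        rw [hA]; ring

/-- **all growth outputs** from the heights -/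
theorem growth_all_of (E : CC.En κ Λ b H Φ r e α p J F q) (B : CC.Bs Λ b F q Q) (hP : RowP)
    (hL : RowL) (hG : G0 α p b) (m : ℕ) :
    ∃ C > 0, ∀ x ∈ Str b,
      ‖F x - 2 * Real.pi * x‖ ≤ Real.exp (C * (b - |x.im|) ^ (-(1 / ((m : ℝ) + 1)) : ℝ)) ∧
      ‖deriv F x‖ ≤ Real.exp (C * (b - |x.im|) ^ (-(1 / ((m : ℝ) + 1)) : ℝ)) ∧
      ‖deriv (deriv F) x‖ ≤ Real.exp (C * (b - |x.im|) ^ (-(1 / ((m : ℝ) + 1)) : ℝ)) ∧
      ‖Q x‖ ≤ Real.exp (C * (b - |x.im|) ^ (-(1 / ((m : ℝ) + 1)) : ℝ)) ∧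
      ‖q x‖ ≤ Real.exp (Real.exp (C * (b - |x.im|) ^ (-(1 / ((m : ℝ) + 1)) : ℝ))) ∧
      ‖deriv q x‖ ≤ Real.exp (Real.exp (C * (b - |x.im|) ^ (-(1 / ((m : ℝ) + 1)) : ℝ))) ∧
      ‖deriv (deriv q) x‖ ≤
        Real.exp (Real.exp (C * (b - |x.im|) ^ (-(1 / ((m : ℝ) + 1)) : ℝ))) := by
  have ha : (0 : ℝ) < 1 / ((m : ℝ) + 1) := by positivity
  obtain ⟨C₁, hC₁, h1⟩ := growth_of E B hP hL hG m
  obtain ⟨C₂, hC₂, h2⟩ := Q_growth B ha h1
  have up : ∀ {X C C' : ℝ} {x : ℂ}, C ≤ C' → x ∈ Str b →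
      X ≤ Real.exp (C * (b - |x.im|) ^ (-(1 / ((m : ℝ) + 1)) : ℝ)) →
      X ≤ Real.exp (C' * (b - |x.im|) ^ (-(1 / ((m : ℝ) + 1)) : ℝ)) := by
    intro X C C' x hC hx h
    refine h.trans (Real.exp_le_exp.2 (mul_le_mul_of_nonneg_right hC ?_))
    have hx' : |x.im| < b := hx
    exact Real.rpow_nonneg (by linarith) _
  obtain ⟨C₃, hC₃, h3⟩ := H348.G.out_all B ha (C := max C₁ C₂)
    (fun x hx => up (le_max_left _ _) hx (h1 x hx)) (fun x hx => up (le_max_right _ _) hx (h2 x hx))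
  refine ⟨max C₃ C₂, lt_max_of_lt_left hC₃, fun x hx => ?_⟩
  obtain ⟨k1, k2, k3, k4, k5, k6⟩ := h3 x hx
  have up2 : ∀ {X : ℝ}, X ≤ Real.exp (Real.exp (C₃ * (b - |x.im|) ^ (-(1 / ((m : ℝ) + 1)) : ℝ))) →
      X ≤ Real.exp (Real.exp (max C₃ C₂ * (b - |x.im|) ^ (-(1 / ((m : ℝ) + 1)) : ℝ))) := by
    intro X h
    refine h.trans (Real.exp_le_exp.2 ?_)
    exact up (le_max_left _ _) hx le_rfl
  exact ⟨up (le_max_left _ _) hx k1, up (le_max_left _ _) hx k2, up (le_max_left _ _) hx k3,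
    up (le_max_right _ _) hx (h2 x hx), up2 k4, up2 k5, up2 k6⟩

end

end Vale.Agent.P097.GR
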