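import Vale.Agent.P097.H531.CD.Sel

/-! # P097 / case [c], growth rows: selection of the heights with a power threshold
(adapted from `H531/CD/Sel.lean`) -/

set_option linter.all false

open Filter Topology Set

namespace Vale.Agent.P097.GR.Sel

open Vale.Agent.P097.CD.Sel (slopes dl_anti iter)

/-- if there is no window of length `(log s)^3` with slope `≥ (2 s)^(-N)`, the unit slopes are small -/
theorem small {Y : ℝ → ℝ} {s₀ : ℝ} (N : ℕ) (hY : ConcaveOn ℝ (Ici s₀) Y)
    (hm : MonotoneOn Y (Ici s₀)) {S : ℝ}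
    (hno : ∀ s D : ℝ, S ≤ s → 1 ≤ s → 1 / (2 * s) ^ N ≤ D → s₀ ≤ s - Real.log s ^ 3 →
      ¬ ∀ τ : ℝ, |τ| ≤ Real.log s ^ 3 → Y s + D * (τ - 1) ≤ Y (s + τ) ∧ Y (s + τ) ≤ Y s + D * τ) :
    ∀ᶠ X : ℝ in atTop, Y X - Y (X - 1) < 1 / X ^ N := by
  set δ : ℝ → ℝ := fun x => Y x - Y (x - 1) with hδ
  have δ0 : ∀ x, s₀ + 1 ≤ x → 0 ≤ δ x := fun x hx => sub_nonneg.2
    (hm (show s₀ ≤ x - 1 by linarith) (show s₀ ≤ x by linarith) (by linarith))
  have δa : ∀ a b, s₀ + 1 ≤ a → a ≤ b → δ b ≤ δ a := fun a b ha hab =>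
    dl_anti hY (by linarith) hab
  -- the alternative at every `s`
  have alt : ∀ s, S ≤ s → 3 ≤ s → s₀ ≤ s - Real.log s ^ 3 - 1 →
      1 / (2 * s) ^ N ≤ δ (s + Real.log s ^ 3 + 1) →
      δ (s + Real.log s ^ 3 + 1) < (1 - 1 / (2 * Real.log s ^ 3)) * δ (s - Real.log s ^ 3) := by
    intro s h1 h2 h3 h4
    by_contra h5
    push Not at h5
    set K := Real.log s ^ 3 with hK
    have hl : 1 ≤ Real.log s := by
      rw [Real.le_log_iff_exp_le (by linarith)]
      have := Real.exp_one_lt_d9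
      linarith
    have hK1 : 1 ≤ K := one_le_pow₀ hl
    have e1 : δ (s + K + 1) = Y (s + K + 1) - Y (s + K) := by
      simp only [hδ]; congr 2; ring
    have e2 : δ (s - K) = Y (s - K) - Y (s - K - 1) := rfl
    rw [e1, e2] at h5
    obtain ⟨D, hD1, hD2⟩ := Vale.Agent.P097.CD.Sel.lin hY hm hK1 h3 h5
    rw [← e1] at hD1
    exact hno s D h1 (by linarith) (h4.trans hD1) (by linarith) hD2
  -- large `X`
  set s₁ := max (s₀ + 1) 1 with hs₁
  set δ₁ := δ s₁ with hδ₁
  have hlog : ∀ n : ℕ, ∀ c : ℝ, 0 < c → ∀ᶠ X : ℝ in atTop, Real.log X ^ n ≤ c * X := by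
    intro n c hc
    have h1 := (Real.isLittleO_pow_log_id_atTop (n := n)).bound hc
    filter_upwards [h1, eventually_ge_atTop 1] with X h2 h3
    rw [Real.norm_of_nonneg (pow_nonneg (Real.log_nonneg h3) n), id, Real.norm_of_nonneg (by linarith)]
      at h2
    exact h2
  have hN0 : (0 : ℝ) ≤ N := Nat.cast_nonneg N
  filter_upwards [eventually_ge_atTop (6 : ℝ), eventually_ge_atTop (2 * S),
    eventually_ge_atTop (2 * s₁), hlog 3 (1 / 16) (by norm_num),
    hlog 7 (1 / (12 * (N + 2))) (by positivity),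
    eventually_ge_atTop (8 * (|s₀| + 1)), eventually_gt_atTop (2 * (|δ₁| + 1))] with
    X h6 hS hs hl3 hl7 ha hd
  by_contra hge
  push Not at hge
  have hge' : 1 / X ^ N ≤ δ X := hge
  have hX0 : 0 < X := by linarith
  set L := Real.log X with hL
  have hL1 : 1 ≤ L := by
    rw [hL, Real.le_log_iff_exp_le (by linarith)]
    have := Real.exp_one_lt_d9
    linarith
  set K := L ^ 3 with hK
  have hK1 : 1 ≤ K := one_le_pow₀ hL1
  have hKX : K ≤ X / 16 := by linarith
  set T := 2 * K + 1 with hT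
  have hs1 : s₀ + 1 ≤ s₁ := le_max_left _ _
  have hab := neg_abs_le s₀
  have hab' := le_abs_self s₀
  -- one step
  have hstep : ∀ x, X / 2 ≤ x → x ≤ X - T → δ (x + T) ≤ (1 - 1 / (2 * K)) * δ x := by
    intro x hx1 hx2
    set s := x + K with hsd
    have hsX : s ≤ X := by linarith
    have hs3 : 3 ≤ s := by linarith
    set k := Real.log s ^ 3 with hk
    have hls : 1 ≤ Real.log s := by
      rw [Real.le_log_iff_exp_le (by linarith)]
      have := Real.exp_one_lt_d9
      linarith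
    have hk1 : 1 ≤ k := one_le_pow₀ hls
    have hkK : k ≤ K := pow_le_pow_left₀ (by linarith) (Real.log_le_log (by linarith) hsX) 3
    have hb1 : δ X ≤ δ (s + k + 1) := δa _ _ (by linarith) (by linarith)
    have hb2 : 1 / (2 * s) ^ N ≤ 1 / X ^ N := by
      apply div_le_div_of_nonneg_left (by norm_num) (by positivity)
      exact pow_le_pow_left₀ hX0.le (by linarith) N
    have h7 := alt s (by linarith) hs3 (by linarith) (hb2.trans (hge'.trans hb1))
    have h8 : δ (x + T) ≤ δ (s + k + 1) := δa _ _ (by linarith) (by linarith)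
    have h9 : δ (s - k) ≤ δ x := δa _ _ (by linarith) (by linarith)
    have h10 : 0 ≤ δ x := δ0 _ (by linarith)
    have h11 : 1 / (2 * K) ≤ 1 / (2 * k) :=
      div_le_div_of_nonneg_left (by norm_num) (by positivity) (by linarith)
    have h12 : 1 / (2 * k) ≤ 1 / 2 :=
      div_le_div_of_nonneg_left (by norm_num) (by norm_num) (by linarith)
    calc δ (x + T) ≤ δ (s + k + 1) := h8
      _ ≤ (1 - 1 / (2 * k)) * δ (s - k) := h7.le
      _ ≤ (1 - 1 / (2 * k)) * δ x := mul_le_mul_of_nonneg_left h9 (by linarith)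
      _ ≤ (1 - 1 / (2 * K)) * δ x := mul_le_mul_of_nonneg_right (by linarith) h10
  -- iterate
  have hT0 : 0 < T := by linarith
  set n : ℕ := ⌊X / (2 * T)⌋₊ with hn
  have hn1 : (n : ℝ) ≤ X / (2 * T) := Nat.floor_le (by positivity)
  have hn2 : X / (2 * T) < n + 1 := Nat.lt_floor_add_one _
  have hnT : (n : ℝ) * T ≤ X / 2 := by
    have h7 := mul_le_mul_of_nonneg_right hn1 hT0.le
    have e : X / (2 * T) * T = X / 2 := by field_simp
    rwa [e] at h7
  have hm0 : 0 ≤ 1 - 1 / (2 * K) := by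
    have : 1 / (2 * K) ≤ 1 / 2 :=
      div_le_div_of_nonneg_left (by norm_num) (by norm_num) (by linarith)
    linarith
  have hit := iter (δ := δ) (x₀ := X / 2) (T := T) (m := 1 - 1 / (2 * K)) (X := X - T) hm0 hT0.le
    (δ0 _ (by linarith)) hstep n (by linarith)
  have h13 : δ X ≤ δ (X / 2 + n * T) := δa _ _
    (by have : 0 ≤ (n : ℝ) * T := by positivity
        linarith) (by linarith)
  have h14 : δ (X / 2) ≤ δ₁ := δa _ _ hs1 (by linarith)
  have hδ₁0 : 0 ≤ δ₁ := δ0 _ hs1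
  have h15 : (1 - 1 / (2 * K)) ^ n ≤ Real.exp (-((N + 2 : ℕ) * L) + 1 / 2) := by
    have h16 : 1 - 1 / (2 * K) ≤ Real.exp (-(1 / (2 * K))) := by
      have := Real.add_one_le_exp (-(1 / (2 * K)))
      linarith
    calc (1 - 1 / (2 * K)) ^ n ≤ Real.exp (-(1 / (2 * K))) ^ n := pow_le_pow_left₀ hm0 h16 n
      _ = Real.exp (-(n / (2 * K))) := by
        rw [← Real.exp_nat_mul]
        congr 1
        ring
      _ ≤ Real.exp (-((N + 2 : ℕ) * L) + 1 / 2) := by
        apply Real.exp_le_exp.2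
        have h17 : X / (6 * K) ≤ X / (2 * T) :=
          div_le_div_of_nonneg_left hX0.le (by positivity) (by linarith)
        have h18 : X / (6 * K) - 1 ≤ n := by linarith
        have h19 : (X / (6 * K) - 1) / (2 * K) ≤ n / (2 * K) :=
          div_le_div_of_nonneg_right h18 (by positivity)
        have h20 : (X / (6 * K) - 1) / (2 * K) = X / (12 * K ^ 2) - 1 / (2 * K) := by
          field_simp; ring
        have h21 : ((N + 2 : ℕ) : ℝ) * L ≤ X / (12 * K ^ 2) := by
          rw [le_div_iff₀ (by positivity)]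
          have e : ((N + 2 : ℕ) : ℝ) * L * (12 * K ^ 2) = (12 * (N + 2)) * L ^ 7 := by
            rw [hK]; push_cast; ring
          rw [e]
          have h21' := mul_le_mul_of_nonneg_left hl7 (by positivity : (0 : ℝ) ≤ 12 * (N + 2))
          refine h21'.trans (le_of_eq ?_)
          field_simp
        have h22 : 1 / (2 * K) ≤ 1 / 2 :=
          div_le_div_of_nonneg_left (by norm_num) (by norm_num) (by linarith)
        linarith
  have h23 : δ X ≤ Real.exp (-((N + 2 : ℕ) * L) + 1 / 2) * δ₁ := by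
    calc δ X ≤ (1 - 1 / (2 * K)) ^ n * δ (X / 2) := h13.trans hit
      _ ≤ (1 - 1 / (2 * K)) ^ n * δ₁ := mul_le_mul_of_nonneg_left h14 (pow_nonneg hm0 n)
      _ ≤ _ := mul_le_mul_of_nonneg_right h15 hδ₁0
  have h24 : Real.exp (-((N + 2 : ℕ) * L) + 1 / 2) ≤ 2 / X ^ (N + 2) := by
    rw [Real.exp_add, Real.exp_neg, Real.exp_nat_mul, hL, Real.exp_log hX0]
    have h25 : Real.exp (1 / 2) ≤ 2 := by
      have h26 : Real.exp (1 / 2) ^ 2 = Real.exp 1 := by
        rw [← Real.exp_nat_mul]; congr 1; norm_num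
      have h27 := Real.exp_one_lt_d9
      have h28 := Real.exp_pos (1 / 2)
      nlinarith
    rw [mul_comm, ← div_eq_mul_inv]
    exact div_le_div_of_nonneg_right h25 (by positivity)
  have h29 : δ₁ ≤ |δ₁| := le_abs_self _
  have h30 : δ X * X ^ (N + 2) ≤ 2 * δ₁ := by
    have h31 := (h23.trans (mul_le_mul_of_nonneg_right h24 hδ₁0))
    have h32 := mul_le_mul_of_nonneg_right h31 (by positivity : 0 ≤ X ^ (N + 2))
    have e : 2 / X ^ (N + 2) * δ₁ * X ^ (N + 2) = 2 * δ₁ := by field_simp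
    rwa [e] at h32
  have h33 : X ^ 2 ≤ δ X * X ^ (N + 2) := by
    have h34 := mul_le_mul_of_nonneg_right hge' (by positivity : 0 ≤ X ^ (N + 2))
    have e : 1 / X ^ N * X ^ (N + 2) = X ^ 2 := by
      rw [pow_add]; field_simp
    rwa [e] at h34
  nlinarith

/-- summation: `Y → b` and unit slopes `≤ X^(-(m+2))` give `b - Y ≤ X^(-m)` -/
theorem sum_small {Y : ℝ → ℝ} {b : ℝ} (m : ℕ) (ht : Tendsto Y atTop (𝓝 b))
    (h : ∀ᶠ X : ℝ in atTop, Y X - Y (X - 1) < 1 / X ^ (m + 2)) :
    ∀ᶠ X : ℝ in atTop, b - Y X ≤ 1 / X ^ m := by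
  obtain ⟨X₀, hX₀⟩ := eventually_atTop.1 h
  filter_upwards [eventually_ge_atTop X₀, eventually_ge_atTop (1 : ℝ)] with X h1 h2
  have hX0 : 0 < X := by linarith
  have key : ∀ n : ℕ, Y (X + n) ≤ Y X + 1 / X ^ m * (1 / X - 1 / (X + n)) := by
    intro n
    induction n with
    | zero => simp
    | succ n ih =>
      have hn : (0 : ℝ) ≤ n := Nat.cast_nonneg n
      have h3 := hX₀ (X + (n + 1 : ℕ)) (by push_cast; linarith)
      have e1 : X + ((n + 1 : ℕ) : ℝ) - 1 = X + n := by push_cast; ring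
      rw [e1] at h3
      have h4 : 1 / (X + ((n + 1 : ℕ) : ℝ)) ^ (m + 2) ≤
          1 / X ^ m * (1 / (X + n) - 1 / (X + ((n + 1 : ℕ) : ℝ))) := by
        have p1 : 0 < X + (n : ℝ) := by linarith
        have p2 : 0 < X + ((n + 1 : ℕ) : ℝ) := by push_cast; linarith
        have e2 : 1 / (X + (n : ℝ)) - 1 / (X + ((n + 1 : ℕ) : ℝ)) =
            1 / ((X + n) * (X + ((n + 1 : ℕ) : ℝ))) := by
          push_cast
          field_simp
          ring
        rw [e2, pow_add, one_div_mul_one_div]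
        apply div_le_div_of_nonneg_left (by norm_num) (by positivity)
        have h5 : X ^ m ≤ (X + ((n + 1 : ℕ) : ℝ)) ^ m :=
          pow_le_pow_left₀ hX0.le (by push_cast; linarith) m
        have h6 : (X + n) * (X + ((n + 1 : ℕ) : ℝ)) ≤ (X + ((n + 1 : ℕ) : ℝ)) ^ 2 := by
          rw [sq]
          apply mul_le_mul_of_nonneg_right _ p2.le
          push_cast; linarith
        exact mul_le_mul h5 h6 (by positivity) (by positivity)
      have e3 : 1 / X ^ m * (1 / X - 1 / (X + ((n + 1 : ℕ) : ℝ))) =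
          1 / X ^ m * (1 / X - 1 / (X + n)) +
            1 / X ^ m * (1 / (X + n) - 1 / (X + ((n + 1 : ℕ) : ℝ))) := by ring
      rw [e3]
      linarith
  have h3 : Tendsto (fun n : ℕ => Y (X + n)) atTop (𝓝 b) :=
    ht.comp (tendsto_atTop_add_const_left _ _ tendsto_natCast_atTop_atTop)
  have h4 : b ≤ Y X + 1 / X ^ m := by
    refine le_of_tendsto h3 (Eventually.of_forall fun n => ?_)
    refine (key n).trans ?_
    have p0 : 0 < 1 / X ^ m := by positivity
    have p1 : 1 / X ≤ 1 := by rw [div_le_one hX0]; exact h2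
    have p2 : 0 < 1 / (X + (n : ℝ)) := by positivity
    have p3 : 1 / X ^ m * (1 / X - 1 / (X + n)) ≤ 1 / X ^ m * 1 :=
      mul_le_mul_of_nonneg_left (by linarith) p0.le
    linarith
  linarith

end Vale.Agent.P097.GR.Sel
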