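import Vale.Agent.P097.H275.G.Base
import Vale.Agent.P097.H275.G.Sel

/-! # P097 / case [c], growth rows: the height function in the strip -/

set_option linter.all false

open Complex Metric Filter Topology Set
open scoped ComplexConjugate

namespace Vale.Agent.P097.GR

open Vale.Agent.P097 Vale.Agent.P097.TA Vale.Agent.P097.H202 Vale.Agent.P097.SC
open Vale.Agent.P097.H456.Fct
open Vale.Agent.P097.CD (Tb Tu Ext HY HS Tb_mono zero_mem_Tb HS_mono)

section
variable {κ Λ b : ℝ} {H Φ : ℂ → ℂ} {r₀ e₀ : ℝ} {α p : ℂ → ℂ → ℂ} {J F q : ℂ → ℂ}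

theorem HS_bdd (E : CC.En κ Λ b H Φ r₀ e₀ α p J F q) (s : ℝ) : BddAbove (HS α p s) := by
  refine ⟨b, ?_⟩
  rintro y ⟨hy, ρ, hρ, he⟩
  exact Ext_le_b he E

theorem HS_conv (E : CC.En κ Λ b H Φ r₀ e₀ α p J F q) {s₁ s₂ a c : ℝ} (ha : 0 ≤ a)
    (hb : 0 ≤ c) (hab : a + c = 1) {y₁ y₂ y : ℝ} (h1 : y₁ ∈ HS α p s₁) (h2 : y₂ ∈ HS α p s₂)
    (hy : 0 < y) (hyy : y < a * y₁ + c * y₂) : y ∈ HS α p (a * s₁ + c * s₂) := by
  obtain ⟨hy₁, ρ₁, hρ₁, he₁⟩ := h1
  obtain ⟨hy₂, ρ₂, hρ₂, he₂⟩ := h2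
  have l1 : -s₁ < Real.log ρ₁ := by
    rw [Real.lt_log_iff_exp_lt ((Real.exp_pos _).trans hρ₁)]; exact hρ₁
  have l2 : -s₂ < Real.log ρ₂ := by
    rw [Real.lt_log_iff_exp_lt ((Real.exp_pos _).trans hρ₂)]; exact hρ₂
  have l3 : -(a * s₁ + c * s₂) < a * Real.log ρ₁ + c * Real.log ρ₂ := by
    rcases ha.eq_or_lt with h | h
    · have hb1 : c = 1 := by linarith
      subst h; subst hb1; linarith
    · nlinarith [mul_lt_mul_of_pos_left l1 h, mul_le_mul_of_nonneg_left l2.le hb]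
  obtain ⟨x, hx1, hx2⟩ := exists_between l3
  have ha' : 1 - c = a := by linarith
  refine ⟨hy, Real.exp x, Real.exp_lt_exp.2 hx1, rowY1 E he₁ he₂ hb (by linarith) hy
    (by rw [ha']; exact hyy) (Real.exp_pos _) ?_⟩
  rw [Real.log_exp, ha']
  exact hx2

/-- properties of the height function -/
structure HP (α p : ℂ → ℂ → ℂ) (b s₀ : ℝ) : Prop where
  conc : ConcaveOn ℝ (Ici s₀) (HY α p)
  mono : MonotoneOn (HY α p) (Ici s₀)
  top : Tendsto (HY α p) atTop (𝓝 b)
  leb : ∀ s, s₀ ≤ s → HY α p s ≤ b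
  half : ∀ s, s₀ ≤ s → b / 2 ≤ HY α p s
  lt : ∀ s, s₀ ≤ s → ∀ y, 0 < y → y < HY α p s → Ext α p y (Real.exp (-s))
  le : ∀ s y ρ, 0 < y → Real.exp (-s) < ρ → Ext α p y ρ → y ≤ HY α p s

theorem heights (E : CC.En κ Λ b H Φ r₀ e₀ α p J F q) : ∃ s₀, HP α p b s₀ := by
  have hb0 := E.b0
  obtain ⟨ρ₀, hρ₀, he₀⟩ := rowY0 E (y := b / 2) (by linarith) (by linarith)
  have hle : ∀ s y ρ, 0 < y → Real.exp (-s) < ρ → Ext α p y ρ → y ≤ HY α p s :=
    fun s y ρ hy hρ he => le_csSup (HS_bdd E s) ⟨hy, ρ, hρ, he⟩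
  have hone' : ∀ s, 1 - Real.log ρ₀ ≤ s → (b / 2 : ℝ) ∈ HS α p s := by
    intro s hs
    refine ⟨by linarith, ρ₀, ?_, he₀⟩
    rw [gt_iff_lt, ← Real.lt_log_iff_exp_lt hρ₀]; linarith
  have hnon : ∀ s, 1 - Real.log ρ₀ ≤ s → (HS α p s).Nonempty := fun s hs => ⟨b / 2, hone' s hs⟩
  have hleb : ∀ s, 1 - Real.log ρ₀ ≤ s → HY α p s ≤ b := fun s hs =>
    csSup_le (hnon s hs) fun y ⟨hy, ρ, hρ, he⟩ => Ext_le_b he E
  refine ⟨1 - Real.log ρ₀, ?_, ?_, ?_, hleb, ?_, ?_, hle⟩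
  · refine ⟨convex_Ici _, ?_⟩
    intro s₁ hs₁ s₂ hs₂ a c ha hb hab
    simp only [smul_eq_mul]
    have hs : 1 - Real.log ρ₀ ≤ a * s₁ + c * s₂ := by
      have h1 := mul_le_mul_of_nonneg_left (show 1 - Real.log ρ₀ ≤ s₁ from hs₁) ha
      have h2 := mul_le_mul_of_nonneg_left (show 1 - Real.log ρ₀ ≤ s₂ from hs₂) hb
      have h3 : a * (1 - Real.log ρ₀) + c * (1 - Real.log ρ₀) = 1 - Real.log ρ₀ := by
        rw [← add_mul, hab, one_mul]
      linarith
    -- points first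
    have key : ∀ y₁ ∈ HS α p s₁, ∀ y₂ ∈ HS α p s₂, a * y₁ + c * y₂ ≤ HY α p (a * s₁ + c * s₂) := by
      intro y₁ h1 y₂ h2
      have hpos : 0 < a * y₁ + c * y₂ := by
        rcases ha.eq_or_lt with h | h
        · have hb1 : c = 1 := by linarith
          subst h; subst hb1; have := h2.1; linarith
        · have := mul_pos h h1.1
          have := mul_nonneg hb h2.1.le
          linarith
      apply le_of_forall_lt
      intro y' hy'
      obtain ⟨y, hy1, hy2⟩ := exists_between (max_lt hy' hpos)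
      have hy3 : y' < y := (le_max_left _ _).trans_lt hy1
      have hy4 : 0 < y := (le_max_right _ _).trans_lt hy1
      exact lt_of_lt_of_le hy3 (le_csSup (HS_bdd E _) (HS_conv E ha hb hab h1 h2 hy4 hy2))
    have h1 : ∀ y₂ ∈ HS α p s₂, a * HY α p s₁ + c * y₂ ≤ HY α p (a * s₁ + c * s₂) := by
      intro y₂ h2
      rcases ha.eq_or_lt with h | h
      · obtain ⟨y₁, h3⟩ := hnon s₁ hs₁
        have := key y₁ h3 y₂ h2
        subst h
        simpa using this
      · have h3 : HY α p s₁ ≤ (HY α p (a * s₁ + c * s₂) - c * y₂) / a := by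
          apply csSup_le (hnon s₁ hs₁)
          intro y₁ h3
          rw [le_div_iff₀ h]
          have := key y₁ h3 y₂ h2
          linarith
        rw [le_div_iff₀ h] at h3
        linarith
    rcases hb.eq_or_lt with h | h
    · obtain ⟨y₂, h3⟩ := hnon s₂ hs₂
      have := h1 y₂ h3
      subst h
      simpa using this
    · have h3 : HY α p s₂ ≤ (HY α p (a * s₁ + c * s₂) - a * HY α p s₁) / c := by
        apply csSup_le (hnon s₂ hs₂)
        intro y₂ h3
        rw [le_div_iff₀ h]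
        have := h1 y₂ h3
        linarith
      rw [le_div_iff₀ h] at h3
      linarith
  · intro s₁ hs₁ s₂ hs₂ h
    exact csSup_le_csSup (HS_bdd E s₂) (hnon s₁ hs₁) (HS_mono h)
  · rw [tendsto_order]
    refine ⟨fun M hM => ?_, fun M hM => ?_⟩
    · obtain ⟨ρ, hρ, he⟩ := rowY0 E (y := (max M (b / 2) + b) / 2)
        (by have := le_max_right M (b / 2); linarith)
        (by have : max M (b / 2) < b := max_lt hM (by linarith)
            linarith)
      filter_upwards [eventually_gt_atTop (-Real.log ρ)] with s hs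
      have h1 : Real.exp (-s) < ρ := by
        rw [← Real.lt_log_iff_exp_lt hρ]; linarith
      have h2 := hle s _ ρ (by have := le_max_right M (b / 2); linarith) h1 he
      have h3 : max M (b / 2) < b := max_lt hM (by linarith)
      have h4 := le_max_left M (b / 2)
      linarith
    · filter_upwards [eventually_ge_atTop (1 - Real.log ρ₀)] with s hs
      exact (hleb s hs).trans_lt hM
  · intro s hs
    exact le_csSup (HS_bdd E s) (hone' s hs)
  · intro s hs y hy hys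
    obtain ⟨y', ⟨hy', ρ, hρ, he⟩, h2⟩ := exists_lt_of_lt_csSup (hnon s hs) hys
    exact he.mono hy (Real.exp_pos _) h2.le hρ.le

end

end Vale.Agent.P097.GR
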