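import Vale.Agent.P097.H275.G.Growth2
import Vale.Agent.P097.H531.GW.Main

/-! # P097 / case [c], row A5.GROWTH: the growth theorem (unconditional)

Near the natural boundary `|Im x| = b` the normal angle `F`, `F'`, `F''` and `Q = F''' / F'` are
bounded by `exp (C (b - |Im x|) ^ (-a))` for every `a > 0`, the support number and its derivatives
by `exp exp (C (b - |Im x|) ^ (-a))`. -/

set_option linter.all false

open Complex Metric Filter Topology Set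
open scoped ComplexConjugate

namespace Vale.Agent.P097.GR

open Vale.Agent.P097 Vale.Agent.P097.TA Vale.Agent.P097.H202 Vale.Agent.P097.SC
open Vale.Agent.P097.H456.Fct

section
variable {κ Λ b : ℝ} {H Φ : ℂ → ℂ} {r e : ℝ} {α p : ℂ → ℂ → ℂ} {J F q Q : ℂ → ℂ}

/-- **(G0)** (531's `GW.growth0`) -/
theorem g0 (E : CC.En κ Λ b H Φ r e α p J F q) : G0 α p b := fun n => GW.growth0 E n

/-- **(G1)** -/
theorem growth (E : CC.En κ Λ b H Φ r e α p J F q) (m : ℕ) :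
    ∃ C > 0, ∀ x ∈ Str b, ‖deriv F x‖ ≤
      Real.exp (C * (b - |x.im|) ^ (-(1 / ((m : ℝ) + 1)) : ℝ)) := by
  obtain ⟨Q, B⟩ := CC.rowB E
  exact growth_of E B H456.C.gr_rowP GW.rowL (g0 E) m

/-- **all growth outputs**, exponents `1 / (m + 1)` -/
theorem growth_all (E : CC.En κ Λ b H Φ r e α p J F q) (B : CC.Bs Λ b F q Q) (m : ℕ) :
    ∃ C > 0, ∀ x ∈ Str b,
      ‖F x - 2 * Real.pi * x‖ ≤ Real.exp (C * (b - |x.im|) ^ (-(1 / ((m : ℝ) + 1)) : ℝ)) ∧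
      ‖deriv F x‖ ≤ Real.exp (C * (b - |x.im|) ^ (-(1 / ((m : ℝ) + 1)) : ℝ)) ∧
      ‖deriv (deriv F) x‖ ≤ Real.exp (C * (b - |x.im|) ^ (-(1 / ((m : ℝ) + 1)) : ℝ)) ∧
      ‖Q x‖ ≤ Real.exp (C * (b - |x.im|) ^ (-(1 / ((m : ℝ) + 1)) : ℝ)) ∧
      ‖q x‖ ≤ Real.exp (Real.exp (C * (b - |x.im|) ^ (-(1 / ((m : ℝ) + 1)) : ℝ))) ∧
      ‖deriv q x‖ ≤ Real.exp (Real.exp (C * (b - |x.im|) ^ (-(1 / ((m : ℝ) + 1)) : ℝ))) ∧
      ‖deriv (deriv q) x‖ ≤
        Real.exp (Real.exp (C * (b - |x.im|) ^ (-(1 / ((m : ℝ) + 1)) : ℝ))) :=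
  growth_all_of E B H456.C.gr_rowP GW.rowL (g0 E) m

/-- **all growth outputs**, every exponent `a > 0` -/
theorem growth_a (E : CC.En κ Λ b H Φ r e α p J F q) (B : CC.Bs Λ b F q Q) {a : ℝ} (ha : 0 < a) :
    ∃ C > 0, ∀ x ∈ Str b,
      ‖F x - 2 * Real.pi * x‖ ≤ Real.exp (C * (b - |x.im|) ^ (-a)) ∧
      ‖deriv F x‖ ≤ Real.exp (C * (b - |x.im|) ^ (-a)) ∧
      ‖deriv (deriv F) x‖ ≤ Real.exp (C * (b - |x.im|) ^ (-a)) ∧
      ‖Q x‖ ≤ Real.exp (C * (b - |x.im|) ^ (-a)) ∧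
      ‖q x‖ ≤ Real.exp (Real.exp (C * (b - |x.im|) ^ (-a))) ∧
      ‖deriv q x‖ ≤ Real.exp (Real.exp (C * (b - |x.im|) ^ (-a))) ∧
      ‖deriv (deriv q) x‖ ≤ Real.exp (Real.exp (C * (b - |x.im|) ^ (-a))) := by
  have hb0 := E.b0
  obtain ⟨m, hm⟩ := exists_nat_gt (1 / a)
  have hm0 : (0 : ℝ) < m := lt_trans (by positivity) hm
  set a' : ℝ := 1 / ((m : ℝ) + 1) with ha'
  have ha'0 : 0 < a' := by positivity
  have hle : a' ≤ a := by
    rw [ha', div_le_iff₀ (by positivity)]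
    rw [div_lt_iff₀ ha] at hm
    nlinarith
  obtain ⟨C, hC, h⟩ := growth_all E B m
  have hB : 0 < b ^ (a - a') := Real.rpow_pos_of_pos hb0 _
  refine ⟨C * b ^ (a - a'), by positivity, fun x hx => ?_⟩
  have hx' : |x.im| < b := hx
  set d := b - |x.im| with hd
  have hd0 : 0 < d := by linarith
  have hdb : d ≤ b := by have := abs_nonneg x.im; linarith
  have key : C * d ^ (-a') ≤ C * b ^ (a - a') * d ^ (-a) := by
    rw [mul_assoc]
    apply mul_le_mul_of_nonneg_left _ hC.le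
    have e1 : d ^ (-a') = d ^ (a - a') * d ^ (-a) := by
      rw [← Real.rpow_add hd0]; congr 1; ring
    rw [e1]
    exact mul_le_mul_of_nonneg_right (Real.rpow_le_rpow hd0.le hdb (by linarith))
      (Real.rpow_nonneg hd0.le _)
  have k1 := Real.exp_le_exp.2 key
  have k2 := Real.exp_le_exp.2 k1
  obtain ⟨h1, h2, h3, h4, h5, h6, h7⟩ := h x hx
  exact ⟨h1.trans k1, h2.trans k1, h3.trans k1, h4.trans k1, h5.trans k2, h6.trans k2, h7.trans k2⟩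

end

end Vale.Agent.P097.GR
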